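import Mathlib

open MeasureTheory Set Metric

namespace Vale.Agent.Results.P127.CountableBase

/-- If `K ⊆ ℝ^n` contains, for every unit vector `e`, a unit segment `{a + t e : 0 ≤ t ≤ 1}`
whose base point `a` can be taken in a fixed countable set `A`, then `dimH K = n`. -/
theorem result (n : ℕ) (K A : Set (EuclideanSpace ℝ (Fin n)))
    (hA : A.Countable)
    (hK : ∀ e : EuclideanSpace ℝ (Fin n), ‖e‖ = 1 →
      ∃ a ∈ A, ∀ t ∈ Set.Icc (0 : ℝ) 1, a + t • e ∈ K) :
    dimH K = n := by
  have hfin : Module.finrank ℝ (EuclideanSpace ℝ (Fin n)) = n := by simp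
  apply le_antisymm
  · calc dimH K ≤ dimH (univ : Set (EuclideanSpace ℝ (Fin n))) := dimH_mono (subset_univ _)
      _ = n := by rw [Real.dimH_univ_eq_finrank, hfin]
  · rcases Nat.eq_zero_or_pos n with hn | hn
    · subst hn; simp
    · -- the open unit ball is covered by the translates `K - a`, `a ∈ A`
      have hcover : ball (0 : EuclideanSpace ℝ (Fin n)) 1 ⊆ ⋃ a ∈ A, (fun y => y - a) '' K := by
        intro x hx
        rw [mem_ball_zero_iff] at hx
        rcases eq_or_ne x 0 with h0 | h0
        · -- the centre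
          have hunit : ‖(EuclideanSpace.single (⟨0, hn⟩ : Fin n) (1 : ℝ))‖ = 1 := by simp
          obtain ⟨a, haA, ha⟩ := hK _ hunit
          have := ha 0 ⟨le_refl _, zero_le_one⟩
          rw [zero_smul, add_zero] at this
          refine mem_iUnion₂.2 ⟨a, haA, a, this, ?_⟩
          simp [h0]
        · have hnorm : 0 < ‖x‖ := norm_pos_iff.2 h0
          have hunit : ‖(‖x‖⁻¹ • x)‖ = 1 := by
            rw [norm_smul, norm_inv, norm_norm, inv_mul_cancel₀ hnorm.ne']
          obtain ⟨a, haA, ha⟩ := hK _ hunit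
          have := ha ‖x‖ ⟨hnorm.le, hx.le⟩
          rw [smul_smul, mul_inv_cancel₀ hnorm.ne', one_smul] at this
          refine mem_iUnion₂.2 ⟨a, haA, a + x, this, ?_⟩
          simp
      have hball : dimH (ball (0 : EuclideanSpace ℝ (Fin n)) 1) = n := by
        rw [Real.dimH_of_mem_nhds (ball_mem_nhds _ one_pos), hfin]
      calc (n : ENNReal) = dimH (ball (0 : EuclideanSpace ℝ (Fin n)) 1) := hball.symm
        _ ≤ dimH (⋃ a ∈ A, (fun y => y - a) '' K) := dimH_mono hcover
        _ = ⨆ a ∈ A, dimH ((fun y => y - a) '' K) := dimH_bUnion hA _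
        _ ≤ dimH K := by
            refine iSup₂_le fun a _ => ?_
            exact ((IsometryEquiv.subRight a).isometry.dimH_image K).le

end Vale.Agent.Results.P127.CountableBase
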