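import Vale.Agent.Lib.P127.Lipschitz

open MeasureTheory Set Metric
open scoped NNReal Pointwise

namespace Vale.Agent.Results.P127.LipschitzDirections

/-- Let `D` be a set of unit vectors of `ℝ^n` whose cone `{t • e : 0 < t < 1, e ∈ D}` has
nonzero Lebesgue outer measure (that is, `D` has positive outer surface measure on the unit
sphere), and let the base-point map `a` be Lipschitz on `D`. Then every set `K` that contains
the unit segments `{a e + t • e : 0 ≤ t ≤ 1}` for all directions `e ∈ D` has nonzero Lebesgue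
outer measure, and hence Hausdorff dimension `n`. -/
theorem result (n : ℕ) (K D : Set (EuclideanSpace ℝ (Fin n)))
    (a : EuclideanSpace ℝ (Fin n) → EuclideanSpace ℝ (Fin n)) (L : ℝ≥0)
    (hD : ∀ e ∈ D, ‖e‖ = 1)
    (hpos : volume (Ioo (0 : ℝ) 1 • D) ≠ 0)
    (ha : LipschitzOnWith L a D)
    (hK : ∀ e ∈ D, ∀ t ∈ Icc (0 : ℝ) 1, a e + t • e ∈ K) :
    volume K ≠ 0 ∧ dimH K = n := by
  have hD' : D ⊆ sphere (0 : EuclideanSpace ℝ (Fin n)) 1 := fun e he =>
    mem_sphere_zero_iff_norm.2 (hD e he)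
  have hvol : (volume : Measure (EuclideanSpace ℝ (Fin n))) K ≠ 0 :=
    Vale.Agent.Lib.P127.measure_ne_zero_of_lipschitzOn_directions volume hD' hpos ha hK
  refine ⟨hvol, ?_⟩
  rw [Vale.Agent.Lib.P127.dimH_eq_finrank_of_measure_ne_zero volume hvol]
  simp

end Vale.Agent.Results.P127.LipschitzDirections
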