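import Vale.Agent.Lib.P127.Lipschitz

open MeasureTheory Set Metric
open scoped NNReal Pointwise

namespace Vale.Agent.Results.P127.LipschitzKakeya

/-- Let `n ≥ 1` and let `K ⊆ ℝ^n` contain, for every unit vector `e`, the unit segment
`{a e + t • e : 0 ≤ t ≤ 1}`, where the base-point map `a` is Lipschitz on the unit sphere.
Then `K` has nonzero Lebesgue outer measure, and hence Hausdorff dimension `n`. -/
theorem result (n : ℕ) (hn : 0 < n) (K : Set (EuclideanSpace ℝ (Fin n)))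
    (a : EuclideanSpace ℝ (Fin n) → EuclideanSpace ℝ (Fin n)) (L : ℝ≥0)
    (ha : LipschitzOnWith L a (sphere (0 : EuclideanSpace ℝ (Fin n)) 1))
    (hK : ∀ e : EuclideanSpace ℝ (Fin n), ‖e‖ = 1 →
      ∀ t ∈ Icc (0 : ℝ) 1, a e + t • e ∈ K) :
    volume K ≠ 0 ∧ dimH K = n := by
  have : Nonempty (Fin n) := ⟨⟨0, hn⟩⟩
  have hpos : (volume : Measure (EuclideanSpace ℝ (Fin n)))
      (Ioo (0 : ℝ) 1 • sphere (0 : EuclideanSpace ℝ (Fin n)) 1) ≠ 0 :=
    Vale.Agent.Lib.P127.measure_cone_sphere_ne_zero volume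
  have hvol : (volume : Measure (EuclideanSpace ℝ (Fin n))) K ≠ 0 :=
    Vale.Agent.Lib.P127.measure_ne_zero_of_lipschitzOn_directions volume (subset_refl _) hpos ha
      (fun e he t ht => hK e (mem_sphere_zero_iff_norm.1 he) t ht)
  refine ⟨hvol, ?_⟩
  rw [Vale.Agent.Lib.P127.dimH_eq_finrank_of_measure_ne_zero volume hvol]
  simp

end Vale.Agent.Results.P127.LipschitzKakeya
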