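import Vale.Agent.Lib.P127.Lipschitz

open MeasureTheory Set Metric
open scoped NNReal Pointwise

namespace Vale.Agent.Results.P127.SigmaLipschitz

/-- Let `n ≥ 1` and let `K ⊆ ℝ^n` contain, for every unit vector `e`, the unit segment
`{a e + t • e : 0 ≤ t ≤ 1}`. If the unit sphere is covered by countably many sets `D i` on
each of which the base-point map `a` is Lipschitz (with a constant `L i` depending on `i`),
then `K` has nonzero Lebesgue outer measure, and hence Hausdorff dimension `n`. -/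
theorem result (n : ℕ) (hn : 0 < n) (K : Set (EuclideanSpace ℝ (Fin n)))
    (a : EuclideanSpace ℝ (Fin n) → EuclideanSpace ℝ (Fin n))
    (D : ℕ → Set (EuclideanSpace ℝ (Fin n))) (L : ℕ → ℝ≥0)
    (hcover : sphere (0 : EuclideanSpace ℝ (Fin n)) 1 ⊆ ⋃ i, D i)
    (ha : ∀ i, LipschitzOnWith (L i) a (D i))
    (hK : ∀ e : EuclideanSpace ℝ (Fin n), ‖e‖ = 1 →
      ∀ t ∈ Icc (0 : ℝ) 1, a e + t • e ∈ K) :
    volume K ≠ 0 ∧ dimH K = n := by
  have : Nonempty (Fin n) := ⟨⟨0, hn⟩⟩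
  have hpos : (volume : Measure (EuclideanSpace ℝ (Fin n)))
      (Ioo (0 : ℝ) 1 • sphere (0 : EuclideanSpace ℝ (Fin n)) 1) ≠ 0 :=
    Vale.Agent.Lib.P127.measure_cone_sphere_ne_zero volume
  have hex : ∃ i, (volume : Measure (EuclideanSpace ℝ (Fin n)))
      (Ioo (0 : ℝ) 1 • (D i ∩ sphere (0 : EuclideanSpace ℝ (Fin n)) 1)) ≠ 0 := by
    by_contra hcon
    apply hpos
    have hall : ∀ i, (volume : Measure (EuclideanSpace ℝ (Fin n)))
        (Ioo (0 : ℝ) 1 • (D i ∩ sphere (0 : EuclideanSpace ℝ (Fin n)) 1)) = 0 := by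
      intro i
      by_contra hi
      exact hcon ⟨i, hi⟩
    have hsub : Ioo (0 : ℝ) 1 • sphere (0 : EuclideanSpace ℝ (Fin n)) 1
        ⊆ ⋃ i, Ioo (0 : ℝ) 1 • (D i ∩ sphere (0 : EuclideanSpace ℝ (Fin n)) 1) := by
      rintro _ ⟨t, ht, e, he, rfl⟩
      obtain ⟨i, hi⟩ := mem_iUnion.1 (hcover he)
      exact mem_iUnion.2 ⟨i, t, ht, e, ⟨hi, he⟩, rfl⟩
    exact measure_mono_null hsub (measure_iUnion_null hall)
  obtain ⟨i, hi⟩ := hex
  have hvol : (volume : Measure (EuclideanSpace ℝ (Fin n))) K ≠ 0 :=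
    Vale.Agent.Lib.P127.measure_ne_zero_of_lipschitzOn_directions volume inter_subset_right hi
      ((ha i).mono inter_subset_left)
      (fun e he t ht => hK e (mem_sphere_zero_iff_norm.1 he.2) t ht)
  refine ⟨hvol, ?_⟩
  rw [Vale.Agent.Lib.P127.dimH_eq_finrank_of_measure_ne_zero volume hvol]
  simp

end Vale.Agent.Results.P127.SigmaLipschitz
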